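import Vale.Agent.P162.KL.Chan

/-!
# P162 : the coset / block step

Positions of a deck of `2 * M` cards, `M = Q * R`, are written `ρ + R * z` with `ρ < R`, `z < 2 * Q`.
The permutations `g` with prescribed residues `g x % R` form a coset of the group of the permutations
of positions which preserve residues, and that group is a product of `R` copies of the
symmetric group on `2 * Q` points.  On such a coset the new-bit channel of the Thorp shuffle is the
product of `R` new-bit channels of decks of `2 * Q` cards.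
-/

namespace Vale.Agent.P162.KL

open Finset Real

/-- transfer of a strong data processing inequality along relabellings of inputs and outputs -/
theorem SDPI_congr {A A' B B' : Type*} [Fintype A] [Fintype A'] [Fintype B] [Fintype B']
    (eA : A ≃ A') (eB : B ≃ B') (K : A → B → ℝ) (K' : A' → B' → ℝ)
    (hK : ∀ a b, K' (eA a) (eB b) = K a b) (η : ℝ) (h : SDPI K η) : SDPI K' η := by
  intro p' hp'
  have hp : IsLaw (fun a => p' (eA a)) :=
    ⟨fun a => hp'.1 _, by rw [← hp'.2]; exact eA.sum_comp p'⟩
  have h1 := h _ hp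
  have hcard : (Fintype.card A : ℝ) = Fintype.card A' := by rw [Fintype.card_congr eA]
  have e1 : ∀ (q' : A' → ℝ) b, push K (fun a => q' (eA a)) b = push K' q' (eB b) := by
    intro q' b
    unfold push
    rw [← eA.sum_comp (fun a' => q' a' * K' a' (eB b))]
    exact Finset.sum_congr rfl fun a _ => by rw [hK]
  have e2 : (fun a => unif A' (eA a)) = unif A := by
    funext a
    simp [unif, hcard]
  have e3 : kl (push K (fun a => p' (eA a))) (push K (unif A))
      = kl (push K' p') (push K' (unif A')) := by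
    unfold kl
    rw [← eB.sum_comp
      (fun b' => push K' p' b' * Real.log (push K' p' b' / push K' (unif A') b'))]
    refine Finset.sum_congr rfl fun b _ => ?_
    rw [e1 p' b, ← e2, e1 (unif A') b]
  have e4 : kl (fun a => p' (eA a)) (unif A) = kl p' (unif A') := by
    unfold kl
    rw [← eA.sum_comp (fun a' => p' a' * Real.log (p' a' / unif A' a'))]
    refine Finset.sum_congr rfl fun a _ => ?_
    simp [unif, hcard]
  rw [e3, e4] at h1
  exact h1

/-- the new bit of the card `x`: the coin of its pair, negated for the bottom half -/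
theorem newBit_eq (M : ℕ) (g : Equiv.Perm (Fin (2 * M))) (b : Fin M → Bool) (x : Fin (2 * M)) :
    newBit M g b x = if h : (g x).val < M then b ⟨(g x).val, h⟩
      else !b ⟨(g x).val - M, by have := (g x).2; omega⟩ := by
  unfold newBit thorpMap
  split_ifs with h hb hb
  · simp [hb]
  · simp [hb]
  · simp [hb]
  · simp [hb]

section Block

variable (R Q M : ℕ) (hM : M = Q * R)

/-- positions: `(z, ρ) ↦ ρ + R * z` -/
def posE : Fin (2 * Q) × Fin R ≃ Fin (2 * M) :=
  finProdFinEquiv.trans (finCongr (by rw [hM]; ring))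

/-- coin indices: `(z, ρ) ↦ ρ + R * z` -/
def idxE : Fin Q × Fin R ≃ Fin M :=
  finProdFinEquiv.trans (finCongr hM.symm)

theorem posE_val (w : Fin (2 * Q) × Fin R) : (posE R Q M hM w).val = w.2.val + R * w.1.val := rfl

theorem idxE_val (w : Fin Q × Fin R) : (idxE R Q M hM w).val = w.2.val + R * w.1.val := rfl

theorem posE_mod (w : Fin (2 * Q) × Fin R) : (posE R Q M hM w).val % R = w.2.val := by
  rw [posE_val, Nat.add_mul_mod_self_left, Nat.mod_eq_of_lt w.2.2]

theorem posE_symm_snd (y : Fin (2 * M)) : ((posE R Q M hM).symm y).2.val = y.val % R := by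
  have := posE_mod R Q M hM ((posE R Q M hM).symm y)
  rw [Equiv.apply_symm_apply] at this
  exact this.symm

theorem posE_lt_iff (w : Fin (2 * Q) × Fin R) : (posE R Q M hM w).val < M ↔ w.1.val < Q := by
  rw [posE_val, hM]
  have h2 := w.2.2
  constructor
  · intro h
    by_contra hcon
    have h3 : Q ≤ w.1.val := not_lt.1 hcon
    have h4 : R * Q ≤ R * w.1.val := Nat.mul_le_mul_left R h3
    have h5 : Q * R = R * Q := Nat.mul_comm _ _
    omega
  · intro h
    have h4 : R * (w.1.val + 1) ≤ R * Q := Nat.mul_le_mul_left R h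
    have h5 : Q * R = R * Q := Nat.mul_comm _ _
    have h6 : R * (w.1.val + 1) = R * w.1.val + R := by ring
    omega

/-- coins of the big deck from the coins of the blocks -/
def coinE : (Fin R → Fin Q → Bool) ≃ (Fin M → Bool) where
  toFun b' := fun i => b' ((idxE R Q M hM).symm i).2 ((idxE R Q M hM).symm i).1
  invFun b := fun ρ z => b (idxE R Q M hM (z, ρ))
  left_inv b' := by
    funext ρ z
    simp
  right_inv b := by
    funext i
    simp

theorem coinE_apply (b' : Fin R → Fin Q → Bool) (z : Fin Q) (ρ : Fin R) (i : Fin M)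
    (hi : i.val = ρ.val + R * z.val) : coinE R Q M hM b' i = b' ρ z := by
  have : i = idxE R Q M hM (z, ρ) := Fin.ext (by rw [hi, idxE_val])
  subst this
  simp [coinE]

variable (g0 : Equiv.Perm (Fin (2 * M)))

/-- output columns of the big deck from the output columns of the blocks -/
def outE : (Fin R → Fin (2 * Q) → Bool) ≃ (Fin (2 * M) → Bool) where
  toFun τ' := fun x => τ' ((posE R Q M hM).symm (g0 x)).2 ((posE R Q M hM).symm (g0 x)).1
  invFun τ := fun ρ z => τ (g0.symm (posE R Q M hM (z, ρ)))
  left_inv τ' := by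
    funext ρ z
    simp
  right_inv τ := by
    funext x
    simp

/-- the permutation of positions acting as `h ρ` on the block of residue `ρ` -/
def blockPerm (h : Fin R → Equiv.Perm (Fin (2 * Q))) : Equiv.Perm (Fin (2 * M)) :=
  (posE R Q M hM).permCongr (Equiv.prodCongrLeft h)

theorem blockPerm_apply (h : Fin R → Equiv.Perm (Fin (2 * Q))) (y : Fin (2 * M)) :
    blockPerm R Q M hM h y = posE R Q M hM
      (h ((posE R Q M hM).symm y).2 ((posE R Q M hM).symm y).1, ((posE R Q M hM).symm y).2) := rfl

/-- a permutation of a product which preserves the second coordinate, restricted to a fibre -/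
def fibPerm {α β : Type*} (s : Equiv.Perm (α × β)) (hs : ∀ w, (s w).2 = w.2) (b : β) :
    Equiv.Perm α where
  toFun a := (s (a, b)).1
  invFun a := (s.symm (a, b)).1
  left_inv a := by
    have h1 : ((s (a, b)).1, b) = s (a, b) := Prod.ext rfl (hs (a, b)).symm
    show (s.symm ((s (a, b)).1, b)).1 = a
    rw [h1, Equiv.symm_apply_apply]
  right_inv a := by
    have h0 : (s.symm (a, b)).2 = b := by
      have := hs (s.symm (a, b))
      rw [Equiv.apply_symm_apply] at this
      exact this.symm
    have h1 : ((s.symm (a, b)).1, b) = s.symm (a, b) := Prod.ext rfl h0.symm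
    show (s ((s.symm (a, b)).1, b)).1 = a
    rw [h1, Equiv.apply_symm_apply]

/-- the action on `(z, ρ)` of `g * g0⁻¹` -/
def relPerm (g : Equiv.Perm (Fin (2 * M))) : Equiv.Perm (Fin (2 * Q) × Fin R) :=
  (posE R Q M hM).symm.permCongr (g0.symm.trans g)

theorem relPerm_apply (g : Equiv.Perm (Fin (2 * M))) (w : Fin (2 * Q) × Fin R) :
    relPerm R Q M hM g0 g w = (posE R Q M hM).symm (g (g0.symm (posE R Q M hM w))) := rfl

theorem relPerm_snd (g : Equiv.Perm (Fin (2 * M)))
    (hg : ∀ x, (g x).val % R = (g0 x).val % R) (w : Fin (2 * Q) × Fin R) :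
    (relPerm R Q M hM g0 g w).2 = w.2 := by
  apply Fin.ext
  rw [relPerm_apply, posE_symm_snd, hg, Equiv.apply_symm_apply, posE_mod]

/-- the coset of `g0` is a product of symmetric groups -/
def cosetE : (Fin R → Equiv.Perm (Fin (2 * Q))) ≃
    {g : Equiv.Perm (Fin (2 * M)) // ∀ x, (g x).val % R = (g0 x).val % R} where
  toFun h := ⟨g0.trans (blockPerm R Q M hM h), fun x => by
    rw [Equiv.trans_apply, blockPerm_apply, posE_mod, posE_symm_snd]⟩
  invFun g := fun ρ => fibPerm (relPerm R Q M hM g0 g.1) (relPerm_snd R Q M hM g0 g.1 g.2) ρ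
  left_inv h := by
    funext ρ
    ext z
    simp [fibPerm, relPerm_apply, blockPerm_apply]
  right_inv g := by
    apply Subtype.ext
    ext x
    rw [Equiv.trans_apply, blockPerm_apply]
    have h1 : (fibPerm (relPerm R Q M hM g0 g.1) (relPerm_snd R Q M hM g0 g.1 g.2)
        ((posE R Q M hM).symm (g0 x)).2 ((posE R Q M hM).symm (g0 x)).1,
          ((posE R Q M hM).symm (g0 x)).2)
        = relPerm R Q M hM g0 g.1 ((posE R Q M hM).symm (g0 x)) :=
      Prod.ext rfl (show ((posE R Q M hM).symm (g0 x)).2 = _ from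
        (relPerm_snd R Q M hM g0 g.1 g.2 _).symm)
    rw [h1, relPerm_apply]
    simp

/-- the new bits of the big deck are the new bits of the blocks -/
theorem newBit_block (h : Fin R → Equiv.Perm (Fin (2 * Q))) (b' : Fin R → Fin Q → Bool) :
    newBit M (g0.trans (blockPerm R Q M hM h)) (coinE R Q M hM b')
      = outE R Q M hM g0 (fun ρ => newBit Q (h ρ) (b' ρ)) := by
  funext x
  set w := (posE R Q M hM).symm (g0 x) with hw
  show _ = newBit Q (h w.2) (b' w.2) w.1
  rw [newBit_eq, newBit_eq]
  have hy : (g0.trans (blockPerm R Q M hM h)) x = posE R Q M hM (h w.2 w.1, w.2) := by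
    rw [Equiv.trans_apply, blockPerm_apply]
  have hlt := posE_lt_iff R Q M hM (h w.2 w.1, w.2)
  have hval := posE_val R Q M hM (h w.2 w.1, w.2)
  rw [← hy] at hlt hval
  simp only at hlt hval
  by_cases hc : (h w.2 w.1).val < Q
  · rw [dif_pos hc, dif_pos (hlt.2 hc)]
    exact coinE_apply R Q M hM b' ⟨(h w.2 w.1).val, hc⟩ w.2 _ hval
  · rw [dif_neg hc, dif_neg (fun h' => hc (hlt.1 h'))]
    congr 1
    refine coinE_apply R Q M hM b' ⟨(h w.2 w.1).val - Q, by have := (h w.2 w.1).2; omega⟩ w.2 _ ?_
    show ((g0.trans (blockPerm R Q M hM h)) x).val - M = w.2.val + R * ((h w.2 w.1).val - Q)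
    rw [hval, hM, Nat.mul_sub, Nat.mul_comm Q R]
    have h3 : Q ≤ (h w.2 w.1).val := not_lt.1 hc
    have h4 : R * Q ≤ R * (h w.2 w.1).val := Nat.mul_le_mul_left R h3
    omega

/-- the new-bit channel on a coset is a product channel -/
theorem bitChan_block (h : Fin R → Equiv.Perm (Fin (2 * Q))) (τ' : Fin R → Fin (2 * Q) → Bool) :
    bitChan M (cosetE R Q M hM g0 h).1 (outE R Q M hM g0 τ') = ∏ ρ, bitChan Q (h ρ) (τ' ρ) := by
  unfold bitChan
  have hcard : (Finset.univ.filter (fun b : Fin M → Bool =>
      newBit M (cosetE R Q M hM g0 h).1 b = outE R Q M hM g0 τ')).card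
      = ∏ ρ, (Finset.univ.filter (fun c : Fin Q → Bool => newBit Q (h ρ) c = τ' ρ)).card := by
    rw [← Fintype.card_piFinset]
    symm
    refine Finset.card_equiv (coinE R Q M hM) fun b' => ?_
    simp only [Fintype.mem_piFinset, Finset.mem_filter, Finset.mem_univ, true_and]
    have e : newBit M (cosetE R Q M hM g0 h).1 (coinE R Q M hM b')
        = outE R Q M hM g0 (fun ρ => newBit Q (h ρ) (b' ρ)) := newBit_block R Q M hM g0 h b'
    rw [e, (outE R Q M hM g0).apply_eq_iff_eq]
    exact funext_iff.symm
  rw [hcard, Finset.prod_div_distrib, Finset.prod_const, Finset.card_univ, Fintype.card_fin,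
    ← pow_mul, ← hM]
  push_cast
  rfl

include hM in
/-- **The coset / block step.** -/
theorem fibre_sdpi (η : ℝ)
    (hprod : SDPI (fun (a : Fin R → Equiv.Perm (Fin (2 * Q))) (b : Fin R → Fin (2 * Q) → Bool) =>
      ∏ ρ, bitChan Q (a ρ) (b ρ)) η) :
    SDPI (fun (g : {g : Equiv.Perm (Fin (2 * M)) // ∀ x, (g x).val % R = (g0 x).val % R})
      (τ : Fin (2 * M) → Bool) => bitChan M g.1 τ) η :=
  SDPI_congr (cosetE R Q M hM g0) (outE R Q M hM g0) _ _
    (fun a b => bitChan_block R Q M hM g0 a b) η hprod

end Block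

end Vale.Agent.P162.KL
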