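import Vale.Agent.P162.KL.Cond
import Vale.Agent.P162.Blk.Fibre
import Vale.Agent.P162.Thorp

/-!
# P162 : one Thorp shuffle and the residues of the positions

The position of a card after one more shuffle, modulo `2 * R`, is twice its old position modulo `R` plus
its new bit (`R` divides `M`).  Hence the divergence of the residues modulo `2 * R` after the shuffle is
at most the divergence of the pair (residues modulo `R`, column of new bits).
-/

namespace Vale.Agent.P162.KL

open Finset Real

section Conv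

variable {G : Type*} [Group G] [Fintype G]

theorem conv_assoc (a b c : G → ℝ) : conv (conv a b) c = conv a (conv b c) := by
  funext g
  unfold conv
  simp only [Finset.sum_mul, Finset.mul_sum]
  rw [Finset.sum_comm]
  refine Finset.sum_congr rfl fun k _ => ?_
  refine (Equiv.sum_comp (Equiv.mulLeft k)
    (fun h => a k * b (k⁻¹ * h) * c (h⁻¹ * g))).symm.trans ?_
  refine Finset.sum_congr rfl fun l _ => ?_
  simp only [Equiv.coe_mulLeft, inv_mul_cancel_left, mul_inv_rev, mul_assoc]

theorem conv_delta_left [DecidableEq G] (ν : G → ℝ) :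
    conv (fun g : G => if g = 1 then (1 : ℝ) else 0) ν = ν := by
  funext g
  unfold conv
  simp [ite_mul]

theorem conv_delta_right [DecidableEq G] (ν : G → ℝ) :
    conv ν (fun g : G => if g = 1 then (1 : ℝ) else 0) = ν := by
  funext g
  unfold conv
  simp [mul_ite, inv_mul_eq_one]

theorem conv_unif (q : G → ℝ) (hq : ∑ g, q g = 1) : conv q (unif G) = unif G := by
  funext g
  unfold conv
  simp only [unif]
  rw [← Finset.sum_mul, hq, one_mul]

theorem unif_isLaw (A : Type*) [Fintype A] [Nonempty A] : IsLaw (unif A) := by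
  refine ⟨fun _ => by unfold unif; positivity, ?_⟩
  simp only [unif, Finset.sum_const, Finset.card_univ, nsmul_eq_mul]
  have : (Fintype.card A : ℝ) ≠ 0 := by exact_mod_cast Fintype.card_ne_zero
  field_simp

end Conv

variable (M : ℕ)

theorem thorpPow_succ' (t : ℕ) :
    thorpPow M (t + 1) = conv (thorpLaw M) (thorpPow M t) := by
  induction t with
  | zero =>
    show conv (thorpPow M 0) (thorpLaw M) = conv (thorpLaw M) (thorpPow M 0)
    show conv (fun g => if g = 1 then (1 : ℝ) else 0) (thorpLaw M)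
      = conv (thorpLaw M) (fun g => if g = 1 then (1 : ℝ) else 0)
    rw [conv_delta_left, conv_delta_right]
  | succ t ih =>
    show conv (thorpPow M (t + 1)) (thorpLaw M) = conv (thorpLaw M) (thorpPow M (t + 1))
    have h1 : thorpPow M (t + 1) = conv (thorpPow M t) (thorpLaw M) := rfl
    conv_rhs => rw [h1, ← conv_assoc, ← ih]

theorem thorpPow_isLaw (t : ℕ) : IsLaw (thorpPow M t) :=
  ⟨thorpPow_nonneg M t, sum_thorpPow M t⟩

theorem thorpLaw_eq (s : Equiv.Perm (Fin (2 * M))) :
    thorpLaw M s = (∑ b : Fin M → Bool, if s = thorpPerm M b then (1 : ℝ) else 0) / 2 ^ M := by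
  unfold thorpLaw
  congr 1
  rw [Finset.card_filter]
  push_cast
  refine Finset.sum_congr rfl fun b _ => ?_
  by_cases h : s = thorpPerm M b
  · have h' : ∀ x, s x = thorpMap M b x := fun x => by rw [h]; rfl
    rw [if_pos h, if_pos h']
  · have h' : ¬ ∀ x, s x = thorpMap M b x := fun hx => h (Equiv.ext hx)
    rw [if_neg h, if_neg h']

theorem conv_thorp (μ : Equiv.Perm (Fin (2 * M)) → ℝ) (g : Equiv.Perm (Fin (2 * M))) :
    conv (thorpLaw M) μ g = ∑ b : Fin M → Bool, μ ((thorpPerm M b)⁻¹ * g) / 2 ^ M := by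
  unfold conv
  simp only [thorpLaw_eq, Finset.sum_div, Finset.sum_mul]
  rw [Finset.sum_comm]
  refine Finset.sum_congr rfl fun b _ => ?_
  rw [Finset.sum_eq_single (thorpPerm M b)]
  · rw [if_pos rfl]
    ring
  · intro s _ hs
    rw [if_neg hs]
    simp
  · intro h
    exact absurd (Finset.mem_univ _) h

/-- residues of the positions -/
def low (R : ℕ) (g : Equiv.Perm (Fin (2 * M))) : Fin (2 * M) → Fin (2 * M) :=
  fun x => ⟨(g x).val % R, lt_of_le_of_lt (Nat.mod_le _ _) (g x).2⟩

/-- the law of (deck, coins) -/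
noncomputable def smp (μ : Equiv.Perm (Fin (2 * M)) → ℝ) :
    Equiv.Perm (Fin (2 * M)) × (Fin M → Bool) → ℝ := fun w => μ w.1 / 2 ^ M

/-- residues and new bits -/
def obsX (R : ℕ) (w : Equiv.Perm (Fin (2 * M)) × (Fin M → Bool)) :
    (Fin (2 * M) → Fin (2 * M)) × (Fin (2 * M) → Bool) := (low M R w.1, newBit M w.1 w.2)

/-- twice the residue plus the new bit -/
def glue (p : (Fin (2 * M) → Fin (2 * M)) × (Fin (2 * M) → Bool)) : Fin (2 * M) → Fin (2 * M) :=
  fun x => ⟨(2 * (p.1 x).val + (if p.2 x then 1 else 0)) % (2 * M),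
    Nat.mod_lt _ (by have := x.2; omega)⟩

theorem low_step (R Q : ℕ) (hM : M = Q * R) (g : Equiv.Perm (Fin (2 * M))) (b : Fin M → Bool) :
    low M (2 * R) (thorpPerm M b * g) = glue M (obsX M R (g, b)) := by
  funext x
  apply Fin.ext
  show ((thorpPerm M b * g) x).val % (2 * R)
    = (2 * ((g x).val % R) + (if newBit M g b x then 1 else 0)) % (2 * M)
  rw [Equiv.Perm.mul_apply, thorpPerm_apply]
  obtain ⟨c, hc, hv⟩ := thorpMap_val M b (g x)
  have hMpos : 0 < M := by have := x.2; omega
  have hR : 0 < R := by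
    rcases Nat.eq_zero_or_pos R with h | h
    · rw [h, Nat.mul_zero] at hM; omega
    · exact h
  have hQ : 0 < Q := by
    rcases Nat.eq_zero_or_pos Q with h | h
    · rw [h, Nat.zero_mul] at hM; omega
    · exact h
  have hRM : R ≤ M := by rw [hM]; exact Nat.le_mul_of_pos_left R hQ
  have hbit : (if newBit M g b x then 1 else 0) = c := by
    unfold newBit
    rw [hv]
    by_cases h1 : c = 1
    · subst h1
      simp
    · have h0 : c = 0 := by omega
      subst h0
      simp
  rw [hbit, hv]
  set u := (g x).val % M with hu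
  have hmod : u % R = (g x).val % R := by
    rw [hu]
    exact Nat.mod_mod_of_dvd _ ⟨Q, by rw [hM]; ring⟩
  have hlt : u % R < R := Nat.mod_lt _ hR
  have h1 : R * (u / R) + u % R = u := Nat.div_add_mod u R
  have h2 : 2 * u + c = (2 * (u % R) + c) + (2 * R) * (u / R) := by
    have : (2 * R) * (u / R) = 2 * (R * (u / R)) := by ring
    omega
  have hA : (2 * u + c) % (2 * R) = 2 * (u % R) + c := by
    rw [h2, Nat.add_mul_mod_self_left]
    exact Nat.mod_eq_of_lt (by omega)
  have hB : (2 * ((g x).val % R) + c) % (2 * M) = 2 * ((g x).val % R) + c :=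
    Nat.mod_eq_of_lt (by rw [← hmod]; omega)
  rw [hA, hB, hmod]

theorem pm_obsX (R : ℕ) (μ : Equiv.Perm (Fin (2 * M)) → ℝ)
    (p : (Fin (2 * M) → Fin (2 * M)) × (Fin (2 * M) → Bool)) :
    pm (smp M μ) (obsX M R) p = joint (low M R) (bitChan M) μ p := by
  obtain ⟨l, τ⟩ := p
  unfold pm joint
  rw [Finset.sum_filter, Fintype.sum_prod_type]
  refine Finset.sum_congr rfl fun g _ => ?_
  by_cases hg : low M R g = l
  · rw [if_pos hg]
    unfold bitChan
    rw [Finset.card_filter]
    push_cast
    rw [Finset.sum_div, Finset.mul_sum]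
    refine Finset.sum_congr rfl fun b _ => ?_
    by_cases hb : newBit M g b = τ
    · have : obsX M R (g, b) = (l, τ) := by unfold obsX; rw [hg, hb]
      rw [if_pos this, if_pos hb]
      unfold smp
      ring
    · have : obsX M R (g, b) ≠ (l, τ) := fun h => hb (congrArg Prod.snd h)
      rw [if_neg this, if_neg hb]
      ring
  · rw [if_neg hg]
    refine Finset.sum_eq_zero fun b _ => ?_
    rw [if_neg]
    intro h
    exact hg (congrArg Prod.fst h)

theorem pm_glue (R Q : ℕ) (hM : M = Q * R) (μ : Equiv.Perm (Fin (2 * M)) → ℝ)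
    (l : Fin (2 * M) → Fin (2 * M)) :
    pm (conv (thorpLaw M) μ) (low M (2 * R)) l = pm (smp M μ) (glue M ∘ obsX M R) l := by
  unfold pm
  rw [Finset.sum_filter, Finset.sum_filter, Fintype.sum_prod_type, Finset.sum_comm]
  simp only [conv_thorp]
  have h1 : ∀ g : Equiv.Perm (Fin (2 * M)),
      (if low M (2 * R) g = l then ∑ b : Fin M → Bool, μ ((thorpPerm M b)⁻¹ * g) / 2 ^ M else 0)
      = ∑ b : Fin M → Bool, if low M (2 * R) g = l then μ ((thorpPerm M b)⁻¹ * g) / 2 ^ M
          else 0 := by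
    intro g
    split_ifs
    · rfl
    · simp
  rw [Finset.sum_congr rfl fun g _ => h1 g, Finset.sum_comm]
  refine Finset.sum_congr rfl fun b _ => ?_
  refine (Equiv.sum_comp (Equiv.mulLeft (thorpPerm M b)) (fun g =>
    if low M (2 * R) g = l then μ ((thorpPerm M b)⁻¹ * g) / 2 ^ M else 0)).symm.trans ?_
  refine Finset.sum_congr rfl fun g _ => ?_
  simp only [Equiv.coe_mulLeft, inv_mul_cancel_left, Function.comp, low_step M R Q hM g b]
  rfl

theorem pair_smp (μ : Equiv.Perm (Fin (2 * M)) → ℝ) (hμ : IsLaw μ) :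
    Pair (smp M μ) (smp M (unif (Equiv.Perm (Fin (2 * M))))) := by
  have hsum : ∀ ν : Equiv.Perm (Fin (2 * M)) → ℝ, ∑ w, smp M ν w = ∑ g, ν g := by
    intro ν
    rw [Fintype.sum_prod_type]
    refine Finset.sum_congr rfl fun g _ => ?_
    simp only [smp, Finset.sum_const, Finset.card_univ, nsmul_eq_mul]
    have : (Fintype.card (Fin M → Bool) : ℝ) = 2 ^ M := by simp
    rw [this]
    field_simp
  have hu := unif_isLaw (Equiv.Perm (Fin (2 * M)))
  refine ⟨fun w => div_nonneg (hμ.1 _) (by positivity), fun w => div_nonneg (hu.1 _) (by positivity),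
    ?_, by rw [hsum, hμ.2], by rw [hsum, hu.2]⟩
  intro w hw
  exfalso
  unfold smp unif at hw
  have h1 : (Fintype.card (Equiv.Perm (Fin (2 * M))) : ℝ) ≠ 0 := by
    exact_mod_cast Fintype.card_ne_zero
  have h2 : (1 : ℝ) / (Fintype.card (Equiv.Perm (Fin (2 * M))) : ℝ) / 2 ^ M ≠ 0 := by positivity
  exact h2 hw

/-- **One step.** -/
theorem one_step (R Q : ℕ) (hM : M = Q * R) (μ : Equiv.Perm (Fin (2 * M)) → ℝ) (hμ : IsLaw μ) :
    Dv (conv (thorpLaw M) μ) (unif (Equiv.Perm (Fin (2 * M)))) (low M (2 * R))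
      ≤ kl (joint (low M R) (bitChan M) μ)
          (joint (low M R) (bitChan M) (unif (Equiv.Perm (Fin (2 * M))))) := by
  have hU : conv (thorpLaw M) (unif (Equiv.Perm (Fin (2 * M)))) = unif (Equiv.Perm (Fin (2 * M))) :=
    conv_unif _ (sum_thorpLaw M)
  have e1 : Dv (conv (thorpLaw M) μ) (unif (Equiv.Perm (Fin (2 * M)))) (low M (2 * R))
      = Dv (smp M μ) (smp M (unif (Equiv.Perm (Fin (2 * M))))) (glue M ∘ obsX M R) := by
    unfold Dv
    congr 1
    · funext l
      exact pm_glue M R Q hM μ l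
    · funext l
      rw [← pm_glue M R Q hM, hU]
  have e2 : Dv (smp M μ) (smp M (unif (Equiv.Perm (Fin (2 * M))))) (obsX M R)
      = kl (joint (low M R) (bitChan M) μ)
          (joint (low M R) (bitChan M) (unif (Equiv.Perm (Fin (2 * M))))) := by
    unfold Dv
    congr 1
    · funext p
      exact pm_obsX M R μ p
    · funext p
      exact pm_obsX M R _ p
  rw [e1, ← e2]
  exact Dv_comp_le (pair_smp M μ hμ) (obsX M R) (glue M)

end Vale.Agent.P162.KL
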